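import Mathlib

open MeasureTheory Filter Topology
open scoped ENNReal SchwartzMap

namespace Vale.Agent.P141

/-- The truncation `T_{ε,R}(f₁,f₂,f₃)(x) = ∫_{ε<|t|<R} f₁(x-t) f₂(x-2t) f₃(x-3t) dt/t`. -/
noncomputable def truncTHT (f₁ f₂ f₃ : 𝓢(ℝ, ℂ)) (ε R x : ℝ) : ℂ :=
  ∫ t in {t : ℝ | ε < |t| ∧ |t| < R}, f₁ (x - t) * f₂ (x - 2 * t) * f₃ (x - 3 * t) / (t : ℂ)

/-- `g` is the trilinear Hilbert transform of `(f₁,f₂,f₃)`: at every point `x`,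
`g x` is the limit of the truncations as `ε → 0+` and `R → ∞`. -/
def IsTHT (f₁ f₂ f₃ : 𝓢(ℝ, ℂ)) (g : ℝ → ℂ) : Prop :=
  ∀ x : ℝ, Tendsto (fun q : ℝ × ℝ => truncTHT f₁ f₂ f₃ q.1 q.2 x) (𝓝[>] 0 ×ˢ atTop) (𝓝 (g x))

/-- A Hölder tuple `(p₁,p₂,p₃,r)`: `1 < p_j ≤ ∞`, `0 < r < ∞`, `1/r = 1/p₁+1/p₂+1/p₃`. -/
def IsHolderTuple (p₁ p₂ p₃ r : ℝ≥0∞) : Prop :=
  1 < p₁ ∧ 1 < p₂ ∧ 1 < p₃ ∧ 0 < r ∧ r < ∞ ∧ r⁻¹ = p₁⁻¹ + p₂⁻¹ + p₃⁻¹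

/-- The trilinear Hilbert transform is bounded at `(p₁,p₂,p₃,r)`. -/
def BoundedAt (p₁ p₂ p₃ r : ℝ≥0∞) : Prop :=
  ∃ C : NNReal, ∀ (f₁ f₂ f₃ : 𝓢(ℝ, ℂ)) (g : ℝ → ℂ), IsTHT f₁ f₂ f₃ g →
    eLpNorm g r volume ≤
      C * (eLpNorm f₁ p₁ volume * eLpNorm f₂ p₂ volume * eLpNorm f₃ p₃ volume)

end Vale.Agent.P141
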