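import Mathlib
import Vale.Agent.P141.Defs

open MeasureTheory Filter Topology
open scoped ENNReal SchwartzMap

namespace Vale.Agent.P141

/-- The product appearing under the integral. -/
noncomputable def tprod (f₁ f₂ f₃ : 𝓢(ℝ, ℂ)) (x t : ℝ) : ℂ :=
  f₁ (x - t) * f₂ (x - 2 * t) * f₃ (x - 3 * t)

/-- The regularised integrand of the principal value. -/
noncomputable def regInt (f₁ f₂ f₃ : 𝓢(ℝ, ℂ)) (x t : ℝ) : ℂ :=
  (tprod f₁ f₂ f₃ x t - (Set.Icc (-1 : ℝ) 1).indicator (fun _ => tprod f₁ f₂ f₃ x 0) t) / (t : ℂ)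

lemma tprod_contDiff (f₁ f₂ f₃ : 𝓢(ℝ, ℂ)) (x : ℝ) :
    ContDiff ℝ 1 (tprod f₁ f₂ f₃ x) := by
  have h1 := f₁.smooth 1
  have h2 := f₂.smooth 1
  have h3 := f₃.smooth 1
  unfold tprod
  exact ((h1.comp (contDiff_const.sub contDiff_id)).mul
    (h2.comp (contDiff_const.sub (contDiff_const.mul contDiff_id)))).mul
    (h3.comp (contDiff_const.sub (contDiff_const.mul contDiff_id)))

lemma tprod_integrable (f₁ f₂ f₃ : 𝓢(ℝ, ℂ)) (x : ℝ) :
    Integrable (tprod f₁ f₂ f₃ x) := by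
  have hi : Integrable (fun t : ℝ => f₁ (x - t)) := by
    exact (f₁.integrable (μ := volume)).comp_sub_left x
  obtain ⟨C2, hC2⟩ : ∃ C, ∀ y, ‖f₂ y‖ ≤ C := by
    refine ⟨SchwartzMap.seminorm ℝ 0 0 f₂, fun y => SchwartzMap.norm_le_seminorm ℝ f₂ y⟩
  obtain ⟨C3, hC3⟩ : ∃ C, ∀ y, ‖f₃ y‖ ≤ C := by
    refine ⟨SchwartzMap.seminorm ℝ 0 0 f₃, fun y => SchwartzMap.norm_le_seminorm ℝ f₃ y⟩
  have hc : Continuous (tprod f₁ f₂ f₃ x) := (tprod_contDiff f₁ f₂ f₃ x).continuous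
  refine (hi.norm.const_mul (C2 * C3)).mono' hc.aestronglyMeasurable ?_
  refine Eventually.of_forall fun t => ?_
  unfold tprod
  rw [norm_mul, norm_mul]
  have a1 := hC2 (x - 2 * t)
  have a2 := hC3 (x - 3 * t)
  have b1 := norm_nonneg (f₁ (x - t))
  have b2 := norm_nonneg (f₂ (x - 2 * t))
  have b3 := norm_nonneg (f₃ (x - 3 * t))
  have : ‖f₂ (x - 2 * t)‖ * ‖f₃ (x - 3 * t)‖ ≤ C2 * C3 :=
    mul_le_mul a1 a2 b3 (b2.trans a1)
  calc ‖f₁ (x - t)‖ * ‖f₂ (x - 2 * t)‖ * ‖f₃ (x - 3 * t)‖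
      = (‖f₂ (x - 2 * t)‖ * ‖f₃ (x - 3 * t)‖) * ‖f₁ (x - t)‖ := by ring
    _ ≤ (C2 * C3) * ‖f₁ (x - t)‖ := mul_le_mul_of_nonneg_right this b1

lemma regInt_bound (f₁ f₂ f₃ : 𝓢(ℝ, ℂ)) (x : ℝ) :
    ∃ K : ℝ, ∀ t : ℝ, ‖regInt f₁ f₂ f₃ x t‖ ≤
      (Set.Icc (-1 : ℝ) 1).indicator (fun _ => K) t + ‖tprod f₁ f₂ f₃ x t‖ := by
  have hcd := tprod_contDiff f₁ f₂ f₃ x
  have hdc : Continuous (deriv (tprod f₁ f₂ f₃ x)) := hcd.continuous_deriv le_rfl
  obtain ⟨K, hK⟩ := (isCompact_Icc (a := (-1 : ℝ)) (b := 1)).exists_bound_of_continuousOn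
    hdc.continuousOn
  have hK0 : 0 ≤ K := (norm_nonneg _).trans (hK 0 (by norm_num))
  refine ⟨K, fun t => ?_⟩
  by_cases ht : t ∈ Set.Icc (-1 : ℝ) 1
  · rw [Set.indicator_of_mem ht]
    unfold regInt
    rw [Set.indicator_of_mem ht]
    have hmv := Convex.norm_image_sub_le_of_norm_deriv_le
      (f := tprod f₁ f₂ f₃ x) (C := K) (s := Set.Icc (-1 : ℝ) 1) (x := 0) (y := t)
      (fun y _ => (hcd.differentiable one_ne_zero).differentiableAt)
      (fun y hy => hK y hy) (convex_Icc _ _) (by norm_num) ht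
    rw [norm_div]
    have : ‖(t : ℂ)‖ = ‖t - 0‖ := by simp
    rw [this]
    have h0 : ‖tprod f₁ f₂ f₃ x t - tprod f₁ f₂ f₃ x 0‖ / ‖t - 0‖ ≤ K :=
      div_le_of_le_mul₀ (norm_nonneg _) hK0 hmv
    exact h0.trans (le_add_of_nonneg_right (norm_nonneg _))
  · rw [Set.indicator_of_notMem ht]
    unfold regInt
    rw [Set.indicator_of_notMem ht, sub_zero, zero_add, norm_div]
    have h1 : 1 ≤ ‖(t : ℂ)‖ := by
      rw [Complex.norm_real, Real.norm_eq_abs]
      by_contra hlt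
      push Not at hlt
      exact ht ⟨by linarith [neg_abs_le t], by linarith [le_abs_self t]⟩
    exact div_le_self (norm_nonneg _) h1

lemma regInt_integrable (f₁ f₂ f₃ : 𝓢(ℝ, ℂ)) (x : ℝ) :
    Integrable (regInt f₁ f₂ f₃ x) := by
  obtain ⟨K, hK⟩ := regInt_bound f₁ f₂ f₃ x
  refine Integrable.mono' (g := fun t => (Set.Icc (-1 : ℝ) 1).indicator (fun _ => K) t
    + ‖tprod f₁ f₂ f₃ x t‖) ?_ ?_ (Eventually.of_forall hK)
  · refine Integrable.add ?_ (tprod_integrable f₁ f₂ f₃ x).norm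
    exact (integrable_indicator_iff measurableSet_Icc).2
      (integrableOn_const (by simp))
  · have hm : Measurable (regInt f₁ f₂ f₃ x) := by
      unfold regInt
      refine Measurable.div (Measurable.sub ?_ ?_) ?_
      · exact (tprod_contDiff f₁ f₂ f₃ x).continuous.measurable
      · exact measurable_const.indicator measurableSet_Icc
      · exact Complex.measurable_ofReal
    exact hm.aestronglyMeasurable

/-- The set `{ε < |t| < R}`. -/
def annulus (ε R : ℝ) : Set ℝ := {t : ℝ | ε < |t| ∧ |t| < R}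

lemma measurableSet_annulus (ε R : ℝ) : MeasurableSet (annulus ε R) := by
  unfold annulus
  exact (measurableSet_lt measurable_const measurable_id.abs).inter
    (measurableSet_lt measurable_id.abs measurable_const)

lemma integral_annulus_odd {ε R : ℝ} (hε : 0 < ε) (hR : 1 < R) (c : ℂ) :
    ∫ t in annulus ε R, (Set.Icc (-1 : ℝ) 1).indicator (fun _ => c) t / (t : ℂ) = 0 := by
  have hodd : ∀ t : ℝ, (annulus ε R).indicator
      (fun t : ℝ => (Set.Icc (-1 : ℝ) 1).indicator (fun _ => c) t / (t : ℂ)) (-t) =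
      - (annulus ε R).indicator
      (fun t : ℝ => (Set.Icc (-1 : ℝ) 1).indicator (fun _ => c) t / (t : ℂ)) t := by
    intro t
    have h1 : (-t ∈ annulus ε R) ↔ (t ∈ annulus ε R) := by simp [annulus]
    have h2 : (-t ∈ Set.Icc (-1 : ℝ) 1) ↔ (t ∈ Set.Icc (-1 : ℝ) 1) := by
      simp only [Set.mem_Icc]
      constructor <;> intro h <;> constructor <;> linarith [h.1, h.2]
    by_cases ht : t ∈ annulus ε R
    · rw [Set.indicator_of_mem ht, Set.indicator_of_mem (h1.2 ht)]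
      by_cases ht' : t ∈ Set.Icc (-1 : ℝ) 1
      · rw [Set.indicator_of_mem ht', Set.indicator_of_mem (h2.2 ht')]
        push_cast
        rw [div_neg]
      · rw [Set.indicator_of_notMem ht', Set.indicator_of_notMem (fun h => ht' (h2.1 h))]
        simp
    · rw [Set.indicator_of_notMem ht, Set.indicator_of_notMem (fun h => ht (h1.1 h))]
      simp
  rw [← integral_indicator (measurableSet_annulus ε R)]
  set F := (annulus ε R).indicator
      (fun t : ℝ => (Set.Icc (-1 : ℝ) 1).indicator (fun _ => c) t / (t : ℂ)) with hF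
  have h := integral_neg_eq_self F volume
  have h2 : ∫ t, F (-t) = - ∫ t, F t := by
    rw [← integral_neg]
    exact integral_congr_ae (Eventually.of_forall hodd)
  have h3 : ∫ t, F t = - ∫ t, F t := h.symm.trans h2
  exact self_eq_neg.mp h3

lemma trunc_eq (f₁ f₂ f₃ : 𝓢(ℝ, ℂ)) (x : ℝ) {ε R : ℝ} (hε : 0 < ε) (hR : 1 < R) :
    truncTHT f₁ f₂ f₃ ε R x = ∫ t in annulus ε R, regInt f₁ f₂ f₃ x t := by
  have hint : IntegrableOn (fun t : ℝ =>
      (Set.Icc (-1 : ℝ) 1).indicator (fun _ => tprod f₁ f₂ f₃ x 0) t / (t : ℂ))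
      (annulus ε R) := by
    refine Measure.integrableOn_of_bounded (M := ‖tprod f₁ f₂ f₃ x 0‖ / ε) ?_ ?_ ?_
    · have : annulus ε R ⊆ Set.Icc (-R) R := by
        intro t ht
        exact ⟨by linarith [neg_abs_le t, ht.2], by linarith [le_abs_self t, ht.2]⟩
      exact ((measure_mono this).trans_lt (by simp)).ne
    · have hm : Measurable (fun t : ℝ =>
          (Set.Icc (-1 : ℝ) 1).indicator (fun _ => tprod f₁ f₂ f₃ x 0) t / (t : ℂ)) :=
        (measurable_const.indicator measurableSet_Icc).div Complex.measurable_ofReal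
      exact hm.aestronglyMeasurable
    · refine (ae_restrict_iff' (measurableSet_annulus ε R)).2 (Eventually.of_forall ?_)
      intro t ht
      rw [norm_div]
      have h1 : ε ≤ ‖(t : ℂ)‖ := by
        rw [Complex.norm_real, Real.norm_eq_abs]; exact ht.1.le
      have h2 : ‖(Set.Icc (-1 : ℝ) 1).indicator (fun _ => tprod f₁ f₂ f₃ x 0) t‖ ≤
          ‖tprod f₁ f₂ f₃ x 0‖ := by
        exact norm_indicator_le_norm_self _ _
      exact div_le_div₀ (norm_nonneg _) h2 hε h1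
  have hint2 : IntegrableOn (regInt f₁ f₂ f₃ x) (annulus ε R) :=
    (regInt_integrable f₁ f₂ f₃ x).integrableOn
  have h0 := integral_annulus_odd hε hR (tprod f₁ f₂ f₃ x 0)
  have : truncTHT f₁ f₂ f₃ ε R x = ∫ t in annulus ε R, (regInt f₁ f₂ f₃ x t +
      (Set.Icc (-1 : ℝ) 1).indicator (fun _ => tprod f₁ f₂ f₃ x 0) t / (t : ℂ)) := by
    unfold truncTHT
    change ∫ t in annulus ε R, _ = _
    refine integral_congr_ae (Eventually.of_forall fun t => ?_)
    simp only [regInt, tprod]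
    ring
  rw [this, integral_add hint2 hint, h0, add_zero]

/-- The principal value exists for all Schwartz inputs. -/
theorem isTHT_regInt (f₁ f₂ f₃ : 𝓢(ℝ, ℂ)) :
    IsTHT f₁ f₂ f₃ (fun x => ∫ t, regInt f₁ f₂ f₃ x t) := by
  intro x
  obtain ⟨K, hK⟩ := regInt_bound f₁ f₂ f₃ x
  have hint := regInt_integrable f₁ f₂ f₃ x
  have hev : ∀ᶠ q : ℝ × ℝ in 𝓝[>] (0 : ℝ) ×ˢ atTop, 0 < q.1 ∧ 1 < q.2 := by
    have e1 : ∀ᶠ a : ℝ in 𝓝[>] (0 : ℝ), 0 < a := eventually_mem_nhdsWithin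
    exact e1.prod_mk (eventually_gt_atTop (1 : ℝ))
  have h1 : Tendsto (fun q : ℝ × ℝ => ∫ t, (annulus q.1 q.2).indicator (regInt f₁ f₂ f₃ x) t)
      (𝓝[>] (0 : ℝ) ×ˢ atTop) (𝓝 (∫ t, regInt f₁ f₂ f₃ x t)) := by
    refine tendsto_integral_filter_of_dominated_convergence
      (fun t => ‖regInt f₁ f₂ f₃ x t‖) ?_ ?_ hint.norm ?_
    · exact Eventually.of_forall fun q => hint.aestronglyMeasurable.indicator
        (measurableSet_annulus q.1 q.2)
    · exact Eventually.of_forall fun q => Eventually.of_forall fun t =>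
        norm_indicator_le_norm_self _ _
    · have h0 : ∀ᵐ t : ℝ, t ≠ 0 := by
        have : volume ({0} : Set ℝ) = 0 := by simp
        exact (measure_eq_zero_iff_ae_notMem.1 this).mono (fun t ht => by simpa using ht)
      filter_upwards [h0] with t ht
      refine tendsto_const_nhds.congr' ?_
      have ha : ∀ᶠ q : ℝ × ℝ in 𝓝[>] (0 : ℝ) ×ˢ atTop, q.1 < |t| ∧ |t| < q.2 := by
        have e1 : ∀ᶠ a : ℝ in 𝓝[>] (0 : ℝ), a < |t| :=
          nhdsWithin_le_nhds (eventually_lt_nhds (abs_pos.2 ht))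
        exact e1.prod_mk (eventually_gt_atTop |t|)
      filter_upwards [ha] with q hq
      rw [Set.indicator_of_mem]
      exact hq
  refine h1.congr' ?_
  filter_upwards [hev] with q hq
  rw [trunc_eq f₁ f₂ f₃ x hq.1 hq.2, integral_indicator (measurableSet_annulus _ _)]

end Vale.Agent.P141
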