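import Mathlib
import Vale.Agent.P141.PV

open MeasureTheory Filter Topology
open scoped ENNReal SchwartzMap

namespace Vale.Agent.P141

/-- The bump: smooth, `0 ≤ ψ ≤ 1`, `ψ = 1` on `|y| ≤ 1/4`, `ψ = 0` for `|y| ≥ 1/2`. -/
noncomputable def psiB : ContDiffBump (0 : ℝ) := ⟨1 / 4, 1 / 2, by norm_num, by norm_num⟩

/-- Sum of bumps. -/
noncomputable def sumB (A : Finset ℤ) (x : ℝ) : ℝ := ∑ a ∈ A, psiB (x - a)

lemma psiB_zero {y : ℝ} (h : 1 / 2 ≤ |y|) : psiB y = 0 := by
  refine psiB.zero_of_le_dist ?_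
  rw [Real.dist_eq, sub_zero]; exact h

lemma psiB_one {y : ℝ} (h : |y| ≤ 1 / 4) : psiB y = 1 := by
  refine psiB.one_of_mem_closedBall ?_
  rw [Metric.mem_closedBall, Real.dist_eq, sub_zero]; exact h

lemma sumB_nonneg (A : Finset ℤ) (x : ℝ) : 0 ≤ sumB A x :=
  Finset.sum_nonneg fun _ _ => psiB.nonneg

lemma sumB_zero (A : Finset ℤ) (x : ℝ) (h : ∀ a ∈ A, 1 / 2 ≤ |x - a|) : sumB A x = 0 :=
  Finset.sum_eq_zero fun a ha => psiB_zero (h a ha)

lemma sumB_le_one (A : Finset ℤ) (x : ℝ) : sumB A x ≤ 1 := by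
  by_cases h : ∃ a ∈ A, |x - a| < 1 / 2
  · obtain ⟨a, ha, hx⟩ := h
    have : sumB A x = psiB (x - a) := by
      refine Finset.sum_eq_single_of_mem a ha fun b _ hb => ?_
      refine psiB_zero ?_
      by_contra hlt
      push Not at hlt
      have h1 : |(a : ℝ) - b| < 1 := by
        have : (a : ℝ) - b = (x - b) - (x - a) := by ring
        rw [this]
        calc |(x - b) - (x - a)| ≤ |x - b| + |x - a| := abs_sub _ _
          _ < 1 := by linarith
      have h2 : |a - b| < 1 := by exact_mod_cast h1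
      have h3 : a - b = 0 := Int.abs_lt_one_iff.1 h2
      exact hb (by omega)
    rw [this]
    exact psiB.le_one
  · push Not at h
    rw [sumB_zero A x h]
    exact zero_le_one

lemma one_le_sumB (A : Finset ℤ) (x : ℝ) (a : ℤ) (ha : a ∈ A) (h : |x - a| ≤ 1 / 4) :
    1 ≤ sumB A x := by
  rw [← psiB_one h]
  exact Finset.single_le_sum (f := fun a : ℤ => psiB (x - a)) (fun _ _ => psiB.nonneg) ha

lemma sumB_contDiff (A : Finset ℤ) : ContDiff ℝ (↑(⊤ : ℕ∞)) (sumB A) := by
  unfold sumB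
  refine ContDiff.sum fun a _ => ?_
  exact psiB.contDiff.comp (contDiff_id.sub contDiff_const)

lemma sumB_hasCompactSupport (A : Finset ℤ) : HasCompactSupport (sumB A) := by
  refine HasCompactSupport.intro (K := ⋃ a ∈ A, Metric.closedBall (a : ℝ) (1 / 2)) ?_ ?_
  · exact A.isCompact_biUnion fun a _ => isCompact_closedBall _ _
  · intro x hx
    refine sumB_zero A x fun a ha => ?_
    by_contra hlt
    push Not at hlt
    refine hx ?_
    simp only [Set.mem_iUnion]
    exact ⟨a, ha, by rw [Metric.mem_closedBall, Real.dist_eq]; exact hlt.le⟩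

/-- The Schwartz function attached to a finite set of integers. -/
noncomputable def schB (A : Finset ℤ) : 𝓢(ℝ, ℂ) :=
  HasCompactSupport.toSchwartzMap (f := fun x : ℝ => (sumB A x : ℂ))
    (by
      have := (sumB_hasCompactSupport A).comp_left (g := fun y : ℝ => (y : ℂ)) (by simp)
      exact this)
    (by
      have : ContDiff ℝ (↑(⊤ : ℕ∞)) (fun y : ℝ => (y : ℂ)) := Complex.ofRealCLM.contDiff
      exact this.comp (sumB_contDiff A))

lemma schB_apply (A : Finset ℤ) (x : ℝ) : schB A x = (sumB A x : ℂ) := rfl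

lemma volume_balls_le (A : Finset ℤ) :
    volume (⋃ a ∈ A, Metric.ball (a : ℝ) (1 / 2)) ≤ (A.card : ℝ≥0∞) := by
  refine (measure_biUnion_finset_le A _).trans ?_
  have : ∀ a ∈ A, volume (Metric.ball ((a : ℤ) : ℝ) (1 / 2)) = 1 := by
    intro a _
    rw [Real.volume_ball]; norm_num
  rw [Finset.sum_congr rfl this]
  simp

lemma eLpNorm_schB_le (A : Finset ℤ) (p : ℝ≥0∞) :
    eLpNorm (schB A) p volume ≤ (A.card : ℝ≥0∞) ^ (1 / p.toReal) := by
  set U : Set ℝ := ⋃ a ∈ A, Metric.ball (a : ℝ) (1 / 2) with hU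
  have h1 : eLpNorm (schB A) p volume ≤ eLpNorm (U.indicator fun _ => (1 : ℝ)) p volume := by
    refine eLpNorm_mono fun x => ?_
    rw [schB_apply, Complex.norm_real, Real.norm_eq_abs, abs_of_nonneg (sumB_nonneg A x)]
    by_cases hx : x ∈ U
    · rw [Set.indicator_of_mem hx]
      simpa using sumB_le_one A x
    · rw [Set.indicator_of_notMem hx, sumB_zero A x]
      · simp
      · intro a ha
        by_contra hlt
        push Not at hlt
        refine hx ?_
        simp only [hU, Set.mem_iUnion]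
        exact ⟨a, ha, by rw [Metric.mem_ball, Real.dist_eq]; exact hlt⟩
  refine h1.trans ((eLpNorm_indicator_const_le _ _).trans ?_)
  rw [enorm_one, one_mul]
  exact ENNReal.rpow_le_rpow (volume_balls_le A) (by positivity)

end Vale.Agent.P141
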