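import Mathlib

open Finset

namespace Vale.Agent.P141

/-- Polynomial hash of an integer vector modulo `p`. -/
def hsh {n : ℕ} (p : ℕ) (g : ZMod p) (v : Fin n → ℤ) : ZMod p :=
  ∑ i, ((v i : ℤ) : ZMod p) * g ^ (i : ℕ)

lemma hsh_sub_smul {n : ℕ} (p : ℕ) (g : ZMod p) (v w : Fin n → ℤ) (k : ℤ) :
    hsh p g (fun i => v i - k * w i) = hsh p g v - k * hsh p g w := by
  unfold hsh
  rw [Finset.mul_sum, ← Finset.sum_sub_distrib]
  refine Finset.sum_congr rfl fun i _ => ?_
  push_cast
  ring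

lemma hsh_coll {n : ℕ} (p : ℕ) [Fact p.Prime] (x y : Fin n → ℤ) (D : ℕ)
    (hx : ∀ i, |x i| ≤ D) (hy : ∀ i, |y i| ≤ D) (hD : 2 * D < p) (hxy : x ≠ y) :
    (univ.filter (fun g : ZMod p => hsh p g x = hsh p g y)).card ≤ n := by
  classical
  set P : Polynomial (ZMod p) :=
    ∑ i : Fin n, Polynomial.C (((x i - y i : ℤ) : ZMod p)) * Polynomial.X ^ (i : ℕ) with hP
  obtain ⟨i₀, hi₀⟩ : ∃ i, x i ≠ y i := Function.ne_iff.1 hxy
  have hcoef : P.coeff i₀ = ((x i₀ - y i₀ : ℤ) : ZMod p) := by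
    rw [hP, Polynomial.finsetSum_coeff]
    rw [Finset.sum_eq_single i₀]
    · rw [Polynomial.coeff_C_mul, Polynomial.coeff_X_pow, if_pos rfl, mul_one]
    · intro j _ hj
      rw [Polynomial.coeff_C_mul, Polynomial.coeff_X_pow, if_neg, mul_zero]
      exact fun h => hj (Fin.ext h.symm)
    · simp
  have hP0 : P ≠ 0 := by
    intro h0
    rw [h0, Polynomial.coeff_zero] at hcoef
    have h1 : ((p : ℤ)) ∣ (x i₀ - y i₀) := (ZMod.intCast_zmod_eq_zero_iff_dvd _ _).1 hcoef.symm
    have h2 : |x i₀ - y i₀| < p := by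
      calc |x i₀ - y i₀| ≤ |x i₀| + |y i₀| := abs_sub _ _
        _ ≤ D + D := add_le_add (hx _) (hy _)
        _ < p := by omega
    have h3 := Int.eq_zero_of_abs_lt_dvd h1 h2
    exact hi₀ (by omega)
  have hdeg : P.natDegree < n ∨ n = 0 := by
    rcases Nat.eq_zero_or_pos n with h | h
    · right; exact h
    · left
      rw [Nat.lt_iff_le_pred h]
      refine Polynomial.natDegree_sum_le_of_forall_le _ _ fun i _ => ?_
      refine (Polynomial.natDegree_C_mul_X_pow_le _ _).trans ?_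
      have := i.2
      omega
  have hdeg' : P.natDegree ≤ n := by
    rcases hdeg with h | h
    · exact h.le
    · subst h; exact i₀.elim0
  refine le_trans ?_ hdeg'
  refine le_trans ?_ (Polynomial.card_roots' P)
  refine le_trans ?_ (Multiset.toFinset_card_le P.roots)
  refine Finset.card_le_card fun g hg => ?_
  rw [Finset.mem_filter] at hg
  rw [Multiset.mem_toFinset, Polynomial.mem_roots hP0, Polynomial.IsRoot.def, hP,
    Polynomial.eval_finsetSum]
  simp only [Polynomial.eval_mul, Polynomial.eval_C, Polynomial.eval_pow, Polynomial.eval_X]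
  have h := hg.2
  unfold hsh at h
  rw [← sub_eq_zero, ← Finset.sum_sub_distrib] at h
  rw [← h]
  refine Finset.sum_congr rfl fun i _ => ?_
  push_cast
  ring

/-- Existence of a good hash. -/
lemma exists_good_hash {n : ℕ} (p : ℕ) [Fact p.Prime] (S : Finset (Fin n → ℤ)) (D : ℕ)
    (hS : ∀ x ∈ S, ∀ i, |x i| ≤ D) (hD : 2 * D < p) (hp : 2 * n * S.card < p) :
    ∃ (g : ZMod p) (S' : Finset (Fin n → ℤ)), S' ⊆ S ∧ S.card ≤ 2 * S'.card ∧
      Set.InjOn (hsh p g) (S' : Set (Fin n → ℤ)) := by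
  classical
  -- bad set for g
  let bad : ZMod p → Finset (Fin n → ℤ) := fun g =>
    S.filter (fun x => ∃ y ∈ S, y ≠ x ∧ hsh p g x = hsh p g y)
  have hsum : ∑ g : ZMod p, (bad g).card ≤ n * (S.card * S.card) := by
    calc ∑ g : ZMod p, (bad g).card
        ≤ ∑ g : ZMod p, ∑ x ∈ S, ∑ y ∈ S, (if y ≠ x ∧ hsh p g x = hsh p g y then 1 else 0) := by
          refine Finset.sum_le_sum fun g _ => ?_
          rw [Finset.card_filter]
          refine Finset.sum_le_sum fun x hx => ?_
          by_cases h : ∃ y ∈ S, y ≠ x ∧ hsh p g x = hsh p g y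
          · rw [if_pos h]
            obtain ⟨y, hy, hyx⟩ := h
            calc 1 = (if y ≠ x ∧ hsh p g x = hsh p g y then 1 else 0) := by rw [if_pos hyx]
              _ ≤ _ := Finset.single_le_sum
                (f := fun y => if y ≠ x ∧ hsh p g x = hsh p g y then 1 else 0)
                (fun _ _ => Nat.zero_le _) hy
          · rw [if_neg h]; exact Nat.zero_le _
      _ = ∑ x ∈ S, ∑ y ∈ S, ∑ g : ZMod p,
            (if y ≠ x ∧ hsh p g x = hsh p g y then 1 else 0) := by
          rw [Finset.sum_comm]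
          refine Finset.sum_congr rfl fun x _ => ?_
          rw [Finset.sum_comm]
      _ ≤ ∑ x ∈ S, ∑ y ∈ S, n := by
          refine Finset.sum_le_sum fun x hx => Finset.sum_le_sum fun y hy => ?_
          by_cases hxy : y = x
          · simp [hxy]
          · have := hsh_coll p x y D (hS x hx) (hS y hy) hD (fun h => hxy h.symm)
            rw [Finset.card_filter] at this
            refine le_trans (Finset.sum_le_sum fun g _ => ?_) this
            by_cases h : hsh p g x = hsh p g y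
            · simp [h, hxy]
            · simp [h]
      _ = n * (S.card * S.card) := by
          simp [Finset.sum_const]; ring
  obtain ⟨g, hg⟩ : ∃ g : ZMod p, 2 * (bad g).card ≤ S.card := by
    by_contra hcon
    push Not at hcon
    have h1 : ∑ g : ZMod p, (S.card + 1) ≤ ∑ g : ZMod p, 2 * (bad g).card :=
      Finset.sum_le_sum fun g _ => hcon g
    rw [Finset.sum_const, Finset.card_univ, ZMod.card, smul_eq_mul, ← Finset.mul_sum] at h1
    have h2 : p * (S.card + 1) ≤ 2 * (n * (S.card * S.card)) :=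
      h1.trans (Nat.mul_le_mul_left 2 hsum)
    have h3 : 2 * n * S.card * (S.card + 1) < p * (S.card + 1) :=
      Nat.mul_lt_mul_of_pos_right hp (Nat.succ_pos _)
    nlinarith
  refine ⟨g, S \ bad g, Finset.sdiff_subset, ?_, ?_⟩
  · have h1 : (bad g) ⊆ S := Finset.filter_subset _ _
    have h2 := Finset.card_sdiff_of_subset h1
    have h3 := Finset.card_le_card h1
    omega
  · intro x hx y hy hxy
    rw [Finset.mem_coe, Finset.mem_sdiff] at hx hy
    by_contra hne
    refine hx.2 ?_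
    rw [Finset.mem_filter]
    exact ⟨hx.1, y, hy.1, fun h => hne h.symm, hxy⟩

/-- lift of residues -/
lemma lift_mem (p : ℕ) [Fact p.Prime] {n : ℕ} (g : ZMod p) (B : Finset (Fin n → ℤ))
    (b : Fin n → ℤ) (hb : b ∈ B) (y : ℤ) (hy1 : -(6 * (p : ℤ)) ≤ y) (hy2 : y < 0)
    (hy : (y : ZMod p) = hsh p g b) :
    y ∈ (B ×ˢ Finset.range 6).image
      (fun q : (Fin n → ℤ) × ℕ => ((hsh p g q.1).val : ℤ) - (q.2 + 1) * p) := by
  have hp : 0 < (p : ℤ) := by exact_mod_cast (Fact.out : p.Prime).pos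
  rw [Finset.mem_image]
  have h1 : ((hsh p g b).val : ℤ) = y % p := by
    rw [← hy, ZMod.val_intCast]
  have h2 : p * (y / p) + y % p = y := Int.mul_ediv_add_emod y p
  have h3 : y / p < 0 := Int.ediv_neg_of_neg_of_pos hy2 hp
  have h4 : -6 ≤ y / p := by
    rw [Int.le_ediv_iff_mul_le hp]; linarith
  refine ⟨(b, (-(y / p) - 1).toNat), ?_, ?_⟩
  · rw [Finset.mem_product]
    refine ⟨hb, ?_⟩
    rw [Finset.mem_range]
    change (-(y / p) - 1).toNat < 6
    omega
  · change ((hsh p g b).val : ℤ) - (((-(y / p) - 1).toNat : ℤ) + 1) * p = y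
    have h5 : (((-(y / p) - 1).toNat : ℤ)) = -(y / p) - 1 := by
      rw [Int.toNat_of_nonneg]; omega
    rw [h5, h1]
    linarith

/-- The compression lemma. -/
theorem compress {n : ℕ} (hn : 1 ≤ n) (S B₁ B₂ B₃ : Finset (Fin n → ℤ)) (hne : S.Nonempty)
    (D : ℕ) (hS : ∀ x ∈ S, ∀ i, |x i| ≤ D) (hD : D ≤ n * S.card)
    (h : ∀ x ∈ S, ∃ t : Fin n → ℤ, (fun i => x i - t i) ∈ B₁ ∧ (fun i => x i - 2 * t i) ∈ B₂ ∧
      (fun i => x i - 3 * t i) ∈ B₃) :
    ∃ (N : ℕ) (X A₁ A₂ A₃ : Finset ℤ), 2 * n * S.card < N ∧ N ≤ 4 * n * S.card ∧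
      S.card ≤ 2 * X.card ∧ A₁.card ≤ 6 * B₁.card ∧ A₂.card ≤ 6 * B₂.card ∧
      A₃.card ≤ 6 * B₃.card ∧ (∀ a ∈ A₁, a ≤ -1) ∧
      (∀ x ∈ X, 0 ≤ x ∧ ∃ t : ℤ, (N : ℤ) ≤ t ∧ t < 2 * N ∧ x - t ∈ A₁ ∧ x - 2 * t ∈ A₂ ∧
        x - 3 * t ∈ A₃) := by
  classical
  have hSc : 0 < S.card := Finset.card_pos.2 hne
  obtain ⟨p, hp, hlt, hle⟩ := Nat.exists_prime_lt_and_le_two_mul (2 * n * S.card)
    (by positivity)
  have : Fact p.Prime := ⟨hp⟩
  obtain ⟨g, S', hsub, hcard, hinj⟩ := exists_good_hash p S D hS (by nlinarith) hlt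
  have hp0 : 0 < (p : ℤ) := by exact_mod_cast hp.pos
  let lift : Finset (Fin n → ℤ) → Finset ℤ := fun B => (B ×ˢ Finset.range 6).image
      (fun q : (Fin n → ℤ) × ℕ => ((hsh p g q.1).val : ℤ) - (q.2 + 1) * p)
  have hliftcard : ∀ B, (lift B).card ≤ 6 * B.card := by
    intro B
    refine Finset.card_image_le.trans ?_
    rw [Finset.card_product, Finset.card_range, mul_comm]
  refine ⟨p, S'.image (fun x => ((hsh p g x).val : ℤ)), lift B₁, lift B₂, lift B₃, hlt,
    by linarith, ?_, hliftcard _, hliftcard _, hliftcard _, ?_, ?_⟩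
  · rw [Finset.card_image_of_injOn]
    · exact hcard
    · intro x hx y hy hxy
      refine hinj hx hy ?_
      have hxy' : ((hsh p g x).val : ℤ) = ((hsh p g y).val : ℤ) := hxy
      have : (hsh p g x).val = (hsh p g y).val := by exact_mod_cast hxy'
      exact ZMod.val_injective p this
  · intro a ha
    simp only [lift, Finset.mem_image] at ha
    obtain ⟨q, _, rfl⟩ := ha
    have h1 : ((hsh p g q.1).val : ℤ) < p := by exact_mod_cast ZMod.val_lt _
    have h2 : (0 : ℤ) ≤ q.2 := by positivity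
    nlinarith
  · intro z hz
    rw [Finset.mem_image] at hz
    obtain ⟨x, hx, rfl⟩ := hz
    obtain ⟨t, ht1, ht2, ht3⟩ := h x (hsub hx)
    have hv1 : ((hsh p g x).val : ℤ) < p := by exact_mod_cast ZMod.val_lt _
    have hv0 : (0 : ℤ) ≤ ((hsh p g x).val : ℤ) := by positivity
    have hw1 : ((hsh p g t).val : ℤ) < p := by exact_mod_cast ZMod.val_lt _
    have hw0 : (0 : ℤ) ≤ ((hsh p g t).val : ℤ) := by positivity
    refine ⟨hv0, ((hsh p g t).val : ℤ) + p, by linarith, by linarith, ?_, ?_, ?_⟩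
    · refine lift_mem p g B₁ _ ht1 _ (by linarith) (by linarith) ?_
      have := hsh_sub_smul p g x t 1
      simp only [one_mul, Int.cast_one] at this
      rw [this]
      push_cast
      simp
    · refine lift_mem p g B₂ _ ht2 _ (by linarith) (by linarith) ?_
      have := hsh_sub_smul p g x t 2
      rw [this]
      push_cast
      simp
    · refine lift_mem p g B₃ _ ht3 _ (by linarith) (by linarith) ?_
      have := hsh_sub_smul p g x t 3
      rw [this]
      push_cast
      simp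

end Vale.Agent.P141
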