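import Mathlib

open Finset Filter Topology

namespace Vale.Agent.P141

set_option linter.unusedSectionVars false

variable {ι : Type} [Fintype ι] [DecidableEq ι]

/-- marginal mass -/
noncomputable def marg (P : ι → ℝ) (f : ι → ℤ) (a : ℤ) : ℝ :=
  ∑ i ∈ univ.filter (fun i => f i = a), P i

/-- Entropy of the image of `P` under `f`. -/
noncomputable def entOf (P : ι → ℝ) (f : ι → ℤ) : ℝ :=
  -∑ i, P i * Real.log (marg P f (f i))

omit [DecidableEq ι] in
lemma exists_exp_lt_one (P : ι → ℝ) (hsum : ∑ i, P i = 1) (g : ι → ℝ)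
    (hg : ∑ i, P i * g i < 0) : ∃ s : ℝ, 0 < s ∧ ∑ i, P i * Real.exp (s * g i) < 1 := by
  have hd : HasDerivAt (fun s : ℝ => ∑ i, P i * Real.exp (s * g i)) (∑ i, P i * g i) 0 := by
    refine HasDerivAt.fun_sum fun i _ => ?_
    have h1 : HasDerivAt (fun s : ℝ => s * g i) (g i) 0 := by
      simpa using (hasDerivAt_id (0 : ℝ)).mul_const (g i)
    have h2 := (h1.exp).const_mul (P i)
    simpa using h2
  have h0 : ∑ i, P i * Real.exp (0 * g i) = 1 := by
    simp [hsum]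
  have hs := (hasDerivAt_iff_tendsto_slope.1 hd)
  have hev : ∀ᶠ s in 𝓝[≠] (0 : ℝ),
      slope (fun s : ℝ => ∑ i, P i * Real.exp (s * g i)) 0 s < 0 :=
    hs.eventually (gt_mem_nhds hg)
  have hev2 : ∀ᶠ s in 𝓝[>] (0 : ℝ),
      slope (fun s : ℝ => ∑ i, P i * Real.exp (s * g i)) 0 s < 0 :=
    hev.filter_mono (nhdsWithin_mono _ fun x hx => (ne_of_gt hx))
  have hpos : ∀ᶠ s in 𝓝[>] (0 : ℝ), 0 < s := eventually_mem_nhdsWithin
  obtain ⟨s, hs1, hs2⟩ := (hev2.and hpos).exists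
  refine ⟨s, hs2, ?_⟩
  rw [slope_def_field, h0, sub_zero] at hs1
  have := (div_neg_iff.1 hs1)
  rcases this with h | h
  · linarith [h.2]
  · linarith [h.1]

lemma large_dev (P : ι → ℝ) (hP : ∀ i, 0 ≤ P i) (g : ι → ℝ) (s : ℝ) (hs : 0 < s) (n : ℕ) :
    ∑ w ∈ univ.filter (fun w : Fin n → ι => 0 ≤ ∑ k, g (w k)), ∏ k, P (w k) ≤
      (∑ i, P i * Real.exp (s * g i)) ^ n := by
  rw [Fintype.sum_pow]
  calc ∑ w ∈ univ.filter (fun w : Fin n → ι => 0 ≤ ∑ k, g (w k)), ∏ k, P (w k)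
      ≤ ∑ w ∈ univ.filter (fun w : Fin n → ι => 0 ≤ ∑ k, g (w k)),
          ∏ k, (P (w k) * Real.exp (s * g (w k))) := by
        refine Finset.sum_le_sum fun w hw => ?_
        rw [Finset.mem_filter] at hw
        rw [Finset.prod_mul_distrib, ← Real.exp_sum, ← Finset.mul_sum]
        refine le_mul_of_one_le_right (Finset.prod_nonneg fun k _ => hP _) ?_
        exact Real.one_le_exp (mul_nonneg hs.le hw.2)
    _ ≤ ∑ w : Fin n → ι, ∏ k, (P (w k) * Real.exp (s * g (w k))) := by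
        refine Finset.sum_le_sum_of_subset_of_nonneg (Finset.filter_subset _ _) fun w _ _ => ?_
        exact Finset.prod_nonneg fun k _ => mul_nonneg (hP _) (Real.exp_pos _).le

/-- For large `n`, an event of the form `0 ≤ ∑ g` has small probability. -/
lemma large_dev' (P : ι → ℝ) (hP : ∀ i, 0 ≤ P i) (hsum : ∑ i, P i = 1) (g : ι → ℝ)
    (hg : ∑ i, P i * g i < 0) :
    ∀ᶠ n : ℕ in atTop,
      ∑ w ∈ univ.filter (fun w : Fin n → ι => 0 ≤ ∑ k, g (w k)), ∏ k, P (w k) ≤ 1 / 8 := by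
  obtain ⟨s, hs, hlt⟩ := exists_exp_lt_one P hsum g hg
  have h0 : 0 ≤ ∑ i, P i * Real.exp (s * g i) :=
    Finset.sum_nonneg fun i _ => mul_nonneg (hP i) (Real.exp_pos _).le
  have ht := tendsto_pow_atTop_nhds_zero_of_lt_one h0 hlt
  filter_upwards [ht.eventually (gt_mem_nhds (show (0 : ℝ) < 1 / 8 by norm_num))] with n hn
  exact (large_dev P hP g s hs n).trans hn.le

lemma marg_pos (P : ι → ℝ) (hP : ∀ i, 0 < P i) (f : ι → ℤ) (i : ι) : 0 < marg P f (f i) := by
  unfold marg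
  exact Finset.sum_pos (fun j _ => hP j) ⟨i, by simp⟩

lemma sum_marg (P : ι → ℝ) (hsum : ∑ i, P i = 1) (f : ι → ℤ) :
    ∑ a ∈ univ.image f, marg P f a = 1 := by
  unfold marg
  rw [← hsum]
  exact Finset.sum_fiberwise_of_maps_to (fun i _ => Finset.mem_image_of_mem f (Finset.mem_univ i)) P

/-- Size bound for typical image sequences. -/
lemma card_image_le' (P : ι → ℝ) (hP : ∀ i, 0 < P i) (hsum : ∑ i, P i = 1) (f : ι → ℤ)
    (l : ℝ) (n : ℕ) (S : Finset (Fin n → ι))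
    (hS : ∀ w ∈ S, ∑ k, (-Real.log (marg P f (f (w k))) - l) < 0) :
    ((S.image (fun w k => f (w k))).card : ℝ) ≤ Real.exp (n * l) := by
  have h1 : ∀ b ∈ S.image (fun w k => f (w k)), Real.exp (-(n * l)) ≤ ∏ k, marg P f (b k) := by
    intro b hb
    rw [Finset.mem_image] at hb
    obtain ⟨w, hw, rfl⟩ := hb
    have h2 := hS w hw
    have h3 : ∏ k, marg P f (f (w k)) = Real.exp (∑ k, Real.log (marg P f (f (w k)))) := by
      rw [Real.exp_sum]
      exact Finset.prod_congr rfl fun k _ => (Real.exp_log (marg_pos P hP f _)).symm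
    rw [h3]
    refine Real.exp_le_exp.2 ?_
    rw [Finset.sum_sub_distrib, Finset.sum_neg_distrib, Finset.sum_const, Finset.card_univ,
      Fintype.card_fin, nsmul_eq_mul] at h2
    linarith
  have h4 : ∑ b ∈ S.image (fun w k => f (w k)), ∏ k, marg P f (b k) ≤ 1 := by
    calc ∑ b ∈ S.image (fun w k => f (w k)), ∏ k, marg P f (b k)
        ≤ ∑ b ∈ Fintype.piFinset (fun _ : Fin n => univ.image f), ∏ k, marg P f (b k) := by
          refine Finset.sum_le_sum_of_subset_of_nonneg ?_ ?_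
          · intro b hb
            rw [Finset.mem_image] at hb
            obtain ⟨w, hw, rfl⟩ := hb
            rw [Fintype.mem_piFinset]
            intro k
            exact Finset.mem_image_of_mem f (Finset.mem_univ _)
          · intro b _ _
            refine Finset.prod_nonneg fun k _ => ?_
            exact Finset.sum_nonneg fun i _ => (hP i).le
      _ = 1 := by
          rw [← Finset.prod_univ_sum (fun _ : Fin n => univ.image f)
            (fun _ a => marg P f a)]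
          simp [sum_marg P hsum f]
  have h5 : ((S.image (fun w k => f (w k))).card : ℝ) * Real.exp (-(n * l)) ≤ 1 := by
    refine le_trans ?_ h4
    rw [← nsmul_eq_mul]
    exact Finset.card_nsmul_le_sum _ _ _ h1
  rw [Real.exp_neg, ← div_eq_mul_inv, div_le_one (Real.exp_pos _)] at h5
  exact h5

/-- Existence of typical sets. -/
theorem typical (P : ι → ℝ) (hP : ∀ i, 0 < P i) (hsum : ∑ i, P i = 1)
    (f₁ f₂ f₃ : ι → ℤ) (l₀ l₁ l₂ l₃ : ℝ) (h₀ : l₀ < -∑ i, P i * Real.log (P i))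
    (h₁ : entOf P f₁ < l₁) (h₂ : entOf P f₂ < l₂) (h₃ : entOf P f₃ < l₃) :
    ∀ᶠ n : ℕ in atTop, ∃ S : Finset (Fin n → ι),
      Real.exp (n * l₀) / 2 ≤ S.card ∧
      ((S.image (fun w k => f₁ (w k))).card : ℝ) ≤ Real.exp (n * l₁) ∧
      ((S.image (fun w k => f₂ (w k))).card : ℝ) ≤ Real.exp (n * l₂) ∧
      ((S.image (fun w k => f₃ (w k))).card : ℝ) ≤ Real.exp (n * l₃) := by
  have hneg : ∀ (f : ι → ℤ) (l : ℝ), entOf P f < l →
      ∑ i, P i * (-Real.log (marg P f (f i)) - l) < 0 := by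
    intro f l h
    have : ∑ i, P i * (-Real.log (marg P f (f i)) - l) = entOf P f - l := by
      unfold entOf
      simp only [mul_sub, mul_neg, Finset.sum_sub_distrib, Finset.sum_neg_distrib,
        ← Finset.sum_mul, hsum, one_mul]
    rw [this]; linarith
  have hneg0 : ∑ i, P i * (Real.log (P i) + l₀) < 0 := by
    have : ∑ i, P i * (Real.log (P i) + l₀) = (∑ i, P i * Real.log (P i)) + l₀ := by
      simp only [mul_add, Finset.sum_add_distrib, ← Finset.sum_mul, hsum, one_mul]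
    rw [this]; linarith
  have hP' : ∀ i, 0 ≤ P i := fun i => (hP i).le
  filter_upwards [large_dev' P hP' hsum _ hneg0, large_dev' P hP' hsum _ (hneg f₁ l₁ h₁),
    large_dev' P hP' hsum _ (hneg f₂ l₂ h₂), large_dev' P hP' hsum _ (hneg f₃ l₃ h₃)]
    with n e0 e1 e2 e3
  let g0 : ι → ℝ := fun i => Real.log (P i) + l₀
  let g1 : ι → ℝ := fun i => -Real.log (marg P f₁ (f₁ i)) - l₁
  let g2 : ι → ℝ := fun i => -Real.log (marg P f₂ (f₂ i)) - l₂
  let g3 : ι → ℝ := fun i => -Real.log (marg P f₃ (f₃ i)) - l₃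
  let S : Finset (Fin n → ι) := univ.filter (fun w =>
    ∑ k, g0 (w k) < 0 ∧ ∑ k, g1 (w k) < 0 ∧ ∑ k, g2 (w k) < 0 ∧ ∑ k, g3 (w k) < 0)
  have hSmem : ∀ w ∈ S, ∑ k, g0 (w k) < 0 ∧ ∑ k, g1 (w k) < 0 ∧ ∑ k, g2 (w k) < 0 ∧
      ∑ k, g3 (w k) < 0 := fun w hw => (Finset.mem_filter.1 hw).2
  refine ⟨S, ?_, card_image_le' P hP hsum f₁ l₁ n S fun w hw => (hSmem w hw).2.1,
    card_image_le' P hP hsum f₂ l₂ n S fun w hw => (hSmem w hw).2.2.1,
    card_image_le' P hP hsum f₃ l₃ n S fun w hw => (hSmem w hw).2.2.2⟩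
  -- total mass
  have htot : ∑ w : Fin n → ι, ∏ k, P (w k) = 1 := by
    rw [← Fintype.sum_pow, hsum, one_pow]
  have hcover : ∑ w : Fin n → ι, ∏ k, P (w k) ≤ ∑ w ∈ S, ∏ k, P (w k) +
      (∑ w ∈ univ.filter (fun w : Fin n → ι => 0 ≤ ∑ k, g0 (w k)), ∏ k, P (w k) +
      ∑ w ∈ univ.filter (fun w : Fin n → ι => 0 ≤ ∑ k, g1 (w k)), ∏ k, P (w k) +
      ∑ w ∈ univ.filter (fun w : Fin n → ι => 0 ≤ ∑ k, g2 (w k)), ∏ k, P (w k) +
      ∑ w ∈ univ.filter (fun w : Fin n → ι => 0 ≤ ∑ k, g3 (w k)), ∏ k, P (w k)) := by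
    simp only [S, Finset.sum_filter]
    rw [← Finset.sum_add_distrib, ← Finset.sum_add_distrib, ← Finset.sum_add_distrib,
      ← Finset.sum_add_distrib]
    refine Finset.sum_le_sum fun w _ => ?_
    have hnn : 0 ≤ ∏ k, P (w k) := Finset.prod_nonneg fun k _ => hP' _
    by_cases c0 : 0 ≤ ∑ k, g0 (w k)
    · rw [if_pos c0]
      have a0 : (0 : ℝ) ≤ if ∑ k, g0 (w k) < 0 ∧ ∑ k, g1 (w k) < 0 ∧ ∑ k, g2 (w k) < 0 ∧
        ∑ k, g3 (w k) < 0 then ∏ k, P (w k) else 0 := by split_ifs <;> first | exact hnn | exact le_rfl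
      have a1 : (0 : ℝ) ≤ if 0 ≤ ∑ k, g1 (w k) then ∏ k, P (w k) else 0 := by
        split_ifs <;> first | exact hnn | exact le_rfl
      have a2 : (0 : ℝ) ≤ if 0 ≤ ∑ k, g2 (w k) then ∏ k, P (w k) else 0 := by
        split_ifs <;> first | exact hnn | exact le_rfl
      have a3 : (0 : ℝ) ≤ if 0 ≤ ∑ k, g3 (w k) then ∏ k, P (w k) else 0 := by
        split_ifs <;> first | exact hnn | exact le_rfl
      linarith
    · by_cases c1 : 0 ≤ ∑ k, g1 (w k)
      · rw [if_pos c1]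
        have a0 : (0 : ℝ) ≤ if ∑ k, g0 (w k) < 0 ∧ ∑ k, g1 (w k) < 0 ∧ ∑ k, g2 (w k) < 0 ∧
          ∑ k, g3 (w k) < 0 then ∏ k, P (w k) else 0 := by split_ifs <;> first | exact hnn | exact le_rfl
        have a1 : (0 : ℝ) ≤ if 0 ≤ ∑ k, g0 (w k) then ∏ k, P (w k) else 0 := by
          split_ifs <;> first | exact hnn | exact le_rfl
        have a2 : (0 : ℝ) ≤ if 0 ≤ ∑ k, g2 (w k) then ∏ k, P (w k) else 0 := by
          split_ifs <;> first | exact hnn | exact le_rfl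
        have a3 : (0 : ℝ) ≤ if 0 ≤ ∑ k, g3 (w k) then ∏ k, P (w k) else 0 := by
          split_ifs <;> first | exact hnn | exact le_rfl
        linarith
      · by_cases c2 : 0 ≤ ∑ k, g2 (w k)
        · rw [if_pos c2]
          have a0 : (0 : ℝ) ≤ if ∑ k, g0 (w k) < 0 ∧ ∑ k, g1 (w k) < 0 ∧ ∑ k, g2 (w k) < 0 ∧
            ∑ k, g3 (w k) < 0 then ∏ k, P (w k) else 0 := by split_ifs <;> first | exact hnn | exact le_rfl
          have a1 : (0 : ℝ) ≤ if 0 ≤ ∑ k, g0 (w k) then ∏ k, P (w k) else 0 := by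
            split_ifs <;> first | exact hnn | exact le_rfl
          have a2 : (0 : ℝ) ≤ if 0 ≤ ∑ k, g1 (w k) then ∏ k, P (w k) else 0 := by
            split_ifs <;> first | exact hnn | exact le_rfl
          have a3 : (0 : ℝ) ≤ if 0 ≤ ∑ k, g3 (w k) then ∏ k, P (w k) else 0 := by
            split_ifs <;> first | exact hnn | exact le_rfl
          linarith
        · by_cases c3 : 0 ≤ ∑ k, g3 (w k)
          · rw [if_pos c3]
            have a0 : (0 : ℝ) ≤ if ∑ k, g0 (w k) < 0 ∧ ∑ k, g1 (w k) < 0 ∧ ∑ k, g2 (w k) < 0 ∧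
              ∑ k, g3 (w k) < 0 then ∏ k, P (w k) else 0 := by split_ifs <;> first | exact hnn | exact le_rfl
            have a1 : (0 : ℝ) ≤ if 0 ≤ ∑ k, g0 (w k) then ∏ k, P (w k) else 0 := by
              split_ifs <;> first | exact hnn | exact le_rfl
            have a2 : (0 : ℝ) ≤ if 0 ≤ ∑ k, g1 (w k) then ∏ k, P (w k) else 0 := by
              split_ifs <;> first | exact hnn | exact le_rfl
            have a3 : (0 : ℝ) ≤ if 0 ≤ ∑ k, g2 (w k) then ∏ k, P (w k) else 0 := by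
              split_ifs <;> first | exact hnn | exact le_rfl
            linarith
          · push Not at c0 c1 c2 c3
            rw [if_pos ⟨c0, c1, c2, c3⟩]
            have a1 : (0 : ℝ) ≤ if 0 ≤ ∑ k, g0 (w k) then ∏ k, P (w k) else 0 := by
              split_ifs <;> first | exact hnn | exact le_rfl
            have a2 : (0 : ℝ) ≤ if 0 ≤ ∑ k, g1 (w k) then ∏ k, P (w k) else 0 := by
              split_ifs <;> first | exact hnn | exact le_rfl
            have a3 : (0 : ℝ) ≤ if 0 ≤ ∑ k, g2 (w k) then ∏ k, P (w k) else 0 := by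
              split_ifs <;> first | exact hnn | exact le_rfl
            have a4 : (0 : ℝ) ≤ if 0 ≤ ∑ k, g3 (w k) then ∏ k, P (w k) else 0 := by
              split_ifs <;> first | exact hnn | exact le_rfl
            linarith
  have hmass : 1 / 2 ≤ ∑ w ∈ S, ∏ k, P (w k) := by
    rw [htot] at hcover
    have e0' : ∑ w ∈ univ.filter (fun w : Fin n → ι => 0 ≤ ∑ k, g0 (w k)), ∏ k, P (w k) ≤ 1 / 8 :=
      e0
    have e1' : ∑ w ∈ univ.filter (fun w : Fin n → ι => 0 ≤ ∑ k, g1 (w k)), ∏ k, P (w k) ≤ 1 / 8 :=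
      e1
    have e2' : ∑ w ∈ univ.filter (fun w : Fin n → ι => 0 ≤ ∑ k, g2 (w k)), ∏ k, P (w k) ≤ 1 / 8 :=
      e2
    have e3' : ∑ w ∈ univ.filter (fun w : Fin n → ι => 0 ≤ ∑ k, g3 (w k)), ∏ k, P (w k) ≤ 1 / 8 :=
      e3
    linarith
  have hub : ∀ w ∈ S, ∏ k, P (w k) ≤ Real.exp (-(n * l₀)) := by
    intro w hw
    have h2 := (hSmem w hw).1
    have h3 : ∏ k, P (w k) = Real.exp (∑ k, Real.log (P (w k))) := by
      rw [Real.exp_sum]
      exact Finset.prod_congr rfl fun k _ => (Real.exp_log (hP _)).symm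
    rw [h3]
    refine Real.exp_le_exp.2 ?_
    simp only [g0] at h2
    rw [Finset.sum_add_distrib, Finset.sum_const, Finset.card_univ,
      Fintype.card_fin, nsmul_eq_mul] at h2
    linarith
  have h6 : 1 / 2 ≤ (S.card : ℝ) * Real.exp (-(n * l₀)) := by
    refine hmass.trans ?_
    rw [← nsmul_eq_mul]
    exact Finset.sum_le_card_nsmul _ _ _ hub
  rw [Real.exp_neg, ← div_eq_mul_inv, le_div_iff₀ (Real.exp_pos _)] at h6
  linarith

end Vale.Agent.P141
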