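import Mathlib
import Vale.Agent.P141.Bump

open MeasureTheory Filter Topology
open scoped ENNReal SchwartzMap

namespace Vale.Agent.P141

/-- the (real) integrand for sums of bumps -/
noncomputable def hInt (A₁ A₂ A₃ : Finset ℤ) (y t : ℝ) : ℝ :=
  sumB A₁ (y - t) * sumB A₂ (y - 2 * t) * sumB A₃ (y - 3 * t) / t

lemma sumB_right (A₁ : Finset ℤ) (hA₁ : ∀ a ∈ A₁, a ≤ -1) {y : ℝ} (hy : -(1 / 16) < y) :
    sumB A₁ y = 0 := by
  refine sumB_zero A₁ y fun a ha => ?_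
  have h1 : (a : ℝ) ≤ -1 := by exact_mod_cast hA₁ a ha
  rw [le_abs]; left; linarith

lemma regInt_eq (A₁ A₂ A₃ : Finset ℤ) (hA₁ : ∀ a ∈ A₁, a ≤ -1) {y : ℝ} (hy : -(1 / 16) < y)
    (t : ℝ) : regInt (schB A₁) (schB A₂) (schB A₃) y t = (hInt A₁ A₂ A₃ y t : ℂ) := by
  have h0 : tprod (schB A₁) (schB A₂) (schB A₃) y 0 = 0 := by
    unfold tprod
    rw [sub_zero, schB_apply A₁ y, sumB_right A₁ hA₁ hy]
    simp
  unfold regInt
  rw [h0]
  simp only [Set.indicator_zero, sub_zero, tprod, schB_apply, hInt]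
  push_cast
  ring

lemma hInt_nonneg (A₁ A₂ A₃ : Finset ℤ) (hA₁ : ∀ a ∈ A₁, a ≤ -1) {y : ℝ}
    (hy : -(1 / 16) < y) (t : ℝ) : 0 ≤ hInt A₁ A₂ A₃ y t := by
  unfold hInt
  by_cases ht : 0 < t
  · exact div_nonneg (mul_nonneg (mul_nonneg (sumB_nonneg _ _) (sumB_nonneg _ _))
      (sumB_nonneg _ _)) ht.le
  · rw [sumB_right A₁ hA₁ (y := y - t) (by push Not at ht; linarith)]
    simp

lemma hInt_lower (A₁ A₂ A₃ : Finset ℤ) (N : ℕ) (hN : 1 ≤ N) (x t₀ : ℤ)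
    (h1 : (N : ℤ) ≤ t₀) (h2 : t₀ < 2 * N) (m1 : x - t₀ ∈ A₁) (m2 : x - 2 * t₀ ∈ A₂)
    (m3 : x - 3 * t₀ ∈ A₃) {y t : ℝ} (hy : |y - x| < 1 / 16) (ht : |t - t₀| ≤ 1 / 16) :
    1 / (3 * N) ≤ hInt A₁ A₂ A₃ y t := by
  have hN' : (1 : ℝ) ≤ N := by exact_mod_cast hN
  have h1' : (N : ℝ) ≤ t₀ := by exact_mod_cast h1
  have h2' : (t₀ : ℝ) < 2 * N := by exact_mod_cast h2
  obtain ⟨hy1, hy2⟩ := abs_lt.1 hy
  obtain ⟨ht1, ht2⟩ := abs_le.1 ht
  have s1 : 1 ≤ sumB A₁ (y - t) := by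
    refine one_le_sumB A₁ _ _ m1 ?_
    push_cast
    rw [abs_le]; constructor <;> linarith
  have s2 : 1 ≤ sumB A₂ (y - 2 * t) := by
    refine one_le_sumB A₂ _ _ m2 ?_
    push_cast
    rw [abs_le]; constructor <;> linarith
  have s3 : 1 ≤ sumB A₃ (y - 3 * t) := by
    refine one_le_sumB A₃ _ _ m3 ?_
    push_cast
    rw [abs_le]; constructor <;> linarith
  have htpos : 0 < t := by linarith
  have ht3 : t ≤ 3 * N := by linarith
  unfold hInt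
  have hprod : 1 ≤ sumB A₁ (y - t) * sumB A₂ (y - 2 * t) * sumB A₃ (y - 3 * t) := by
    have := one_le_mul_of_one_le_of_one_le (one_le_mul_of_one_le_of_one_le s1 s2) s3
    exact this
  exact div_le_div₀ (by linarith) hprod htpos ht3

lemma norm_lower (A₁ A₂ A₃ : Finset ℤ) (hA₁ : ∀ a ∈ A₁, a ≤ -1) (N : ℕ) (hN : 1 ≤ N)
    (x t₀ : ℤ) (hx : 0 ≤ x)
    (h1 : (N : ℤ) ≤ t₀) (h2 : t₀ < 2 * N) (m1 : x - t₀ ∈ A₁) (m2 : x - 2 * t₀ ∈ A₂)
    (m3 : x - 3 * t₀ ∈ A₃) {y : ℝ} (hy : |y - x| < 1 / 16) :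
    1 / (24 * N) ≤ ‖∫ t, regInt (schB A₁) (schB A₂) (schB A₃) y t‖ := by
  have hx' : (0 : ℝ) ≤ x := by exact_mod_cast hx
  have hy' : -(1 / 16) < y := by linarith [(abs_lt.1 hy).1]
  have hint := regInt_integrable (schB A₁) (schB A₂) (schB A₃) y
  have heq : (fun t => regInt (schB A₁) (schB A₂) (schB A₃) y t) =
      fun t => (hInt A₁ A₂ A₃ y t : ℂ) := funext fun t => regInt_eq A₁ A₂ A₃ hA₁ hy' t
  have hint' : Integrable (fun t => hInt A₁ A₂ A₃ y t) := by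
    have h3 : Integrable (fun t => (hInt A₁ A₂ A₃ y t : ℂ)) := by
      rw [← heq]; exact hint
    simpa using h3.re
  rw [heq, integral_complex_ofReal, Complex.norm_real, Real.norm_eq_abs,
    abs_of_nonneg (integral_nonneg fun t => hInt_nonneg A₁ A₂ A₃ hA₁ hy' t)]
  have hN' : (1 : ℝ) ≤ N := by exact_mod_cast hN
  calc (1 : ℝ) / (24 * N) = ∫ _t in Set.Icc ((t₀ : ℝ) - 1 / 16) (t₀ + 1 / 16), 1 / (3 * (N : ℝ)) := by
        rw [setIntegral_const, Measure.real, Real.volume_Icc]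
        rw [ENNReal.toReal_ofReal (by linarith)]
        rw [smul_eq_mul]
        field_simp
        ring
    _ ≤ ∫ t in Set.Icc ((t₀ : ℝ) - 1 / 16) (t₀ + 1 / 16), hInt A₁ A₂ A₃ y t := by
        refine setIntegral_mono_on (integrableOn_const (by simp)) hint'.integrableOn
          measurableSet_Icc fun t ht => ?_
        refine hInt_lower A₁ A₂ A₃ N hN x t₀ h1 h2 m1 m2 m3 hy ?_
        rw [abs_le]; constructor <;> linarith [ht.1, ht.2]
    _ ≤ ∫ t, hInt A₁ A₂ A₃ y t :=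
        setIntegral_le_integral hint' (Eventually.of_forall fun t =>
          hInt_nonneg A₁ A₂ A₃ hA₁ hy' t)

lemma volume_small_balls (X : Finset ℤ) :
    volume (⋃ a ∈ X, Metric.ball (a : ℝ) (1 / 16)) = ENNReal.ofReal (X.card / 8) := by
  rw [measure_biUnion_finset]
  · have : ∀ a ∈ X, volume (Metric.ball ((a : ℤ) : ℝ) (1 / 16)) = ENNReal.ofReal (1 / 8) := by
      intro a _
      rw [Real.volume_ball]; norm_num
    rw [Finset.sum_congr rfl this, Finset.sum_const, nsmul_eq_mul,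
      ← ENNReal.ofReal_natCast, ← ENNReal.ofReal_mul (by positivity)]
    congr 1; ring
  · intro a _ b _ hab
    refine Metric.ball_disjoint_ball ?_
    rw [Real.dist_eq]
    have h1 : (1 : ℤ) ≤ |a - b| := Int.one_le_abs (sub_ne_zero.2 hab)
    have h2 : (1 : ℝ) ≤ |(a : ℝ) - b| := by exact_mod_cast h1
    linarith
  · exact fun _ _ => measurableSet_ball

/-- The main analytic lower bound. -/
theorem bounded_imp (p₁ p₂ p₃ r : ℝ≥0∞) (hr0 : r ≠ 0) (hrt : r ≠ ∞) (C : NNReal)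
    (hC : ∀ (f₁ f₂ f₃ : 𝓢(ℝ, ℂ)) (g : ℝ → ℂ), IsTHT f₁ f₂ f₃ g →
      eLpNorm g r volume ≤
        C * (eLpNorm f₁ p₁ volume * eLpNorm f₂ p₂ volume * eLpNorm f₃ p₃ volume))
    (N : ℕ) (hN : 1 ≤ N) (A₁ A₂ A₃ X : Finset ℤ) (hA₁ : ∀ a ∈ A₁, a ≤ -1)
    (hX : ∀ x ∈ X, 0 ≤ x ∧ ∃ t : ℤ, (N : ℤ) ≤ t ∧ t < 2 * N ∧ x - t ∈ A₁ ∧ x - 2 * t ∈ A₂ ∧
      x - 3 * t ∈ A₃) :
    1 / (24 * (N : ℝ)) * ((X.card : ℝ) / 8) ^ (1 / r.toReal) ≤
      C * ((A₁.card : ℝ) ^ (1 / p₁.toReal) * (A₂.card : ℝ) ^ (1 / p₂.toReal) *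
        (A₃.card : ℝ) ^ (1 / p₃.toReal)) := by
  have hN' : (1 : ℝ) ≤ N := by exact_mod_cast hN
  have h1 := hC _ _ _ _ (isTHT_regInt (schB A₁) (schB A₂) (schB A₃))
  set V : Set ℝ := ⋃ a ∈ X, Metric.ball (a : ℝ) (1 / 16) with hV
  have hVm : MeasurableSet V := by
    refine Finset.measurableSet_biUnion _ fun _ _ => measurableSet_ball
  have h2 : eLpNorm (V.indicator fun _ => (1 / (24 * (N : ℝ)) : ℝ)) r volume ≤
      eLpNorm (fun x => ∫ t, regInt (schB A₁) (schB A₂) (schB A₃) x t) r volume := by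
    refine eLpNorm_mono fun y => ?_
    by_cases hy : y ∈ V
    · rw [Set.indicator_of_mem hy, Real.norm_eq_abs, abs_of_nonneg (by positivity)]
      simp only [hV, Set.mem_iUnion] at hy
      obtain ⟨x, hx, hyx⟩ := hy
      obtain ⟨h0, t, ht1, ht2, m1, m2, m3⟩ := hX x hx
      rw [Metric.mem_ball, Real.dist_eq] at hyx
      exact norm_lower A₁ A₂ A₃ hA₁ N hN x t h0 ht1 ht2 m1 m2 m3 hyx
    · rw [Set.indicator_of_notMem hy]
      simp
  rw [eLpNorm_indicator_const hVm hr0 hrt, volume_small_balls] at h2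
  have h3 := h2.trans h1
  have h4 := h3.trans (mul_le_mul_right (mul_le_mul' (mul_le_mul' (eLpNorm_schB_le A₁ p₁)
    (eLpNorm_schB_le A₂ p₂)) (eLpNorm_schB_le A₃ p₃)) (C : ℝ≥0∞))
  have e1 : ‖(1 / (24 * (N : ℝ)) : ℝ)‖ₑ = ENNReal.ofReal (1 / (24 * (N : ℝ))) := by
    rw [Real.enorm_eq_ofReal (by positivity)]
  rw [e1] at h4
  rw [ENNReal.ofReal_rpow_of_nonneg (by positivity) (by positivity),
    ← ENNReal.ofReal_mul (by positivity)] at h4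
  have e2 : ∀ (n : ℕ) (p : ℝ≥0∞), (n : ℝ≥0∞) ^ (1 / p.toReal) =
      ENNReal.ofReal ((n : ℝ) ^ (1 / p.toReal)) := by
    intro n p
    rw [← ENNReal.ofReal_natCast, ENNReal.ofReal_rpow_of_nonneg (by positivity) (by positivity)]
  rw [e2, e2, e2, ← ENNReal.ofReal_mul (by positivity), ← ENNReal.ofReal_mul (by positivity),
    ← ENNReal.ofReal_coe_nnreal, ← ENNReal.ofReal_mul (by positivity)] at h4
  exact (ENNReal.ofReal_le_ofReal_iff (by positivity)).1 h4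

end Vale.Agent.P141
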