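import Mathlib
import Vale.Agent.P141.Lower
import Vale.Agent.P141.Compress
import Vale.Agent.P141.Entropy

open MeasureTheory Filter Topology
open scoped ENNReal SchwartzMap

namespace Vale.Agent.P141

lemma exp_beats (K s δ : ℝ) (hδ : 0 < δ) :
    ∀ᶠ n : ℕ in atTop, K * (n : ℝ) ^ s < Real.exp (n * δ) := by
  have h1 := isLittleO_rpow_exp_pos_mul_atTop s hδ
  have h2 := h1.bound (show (0 : ℝ) < 1 / (|K| + 1) by positivity)
  have h3 := (tendsto_natCast_atTop_atTop (R := ℝ)).eventually h2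
  filter_upwards [h3] with n hn
  rw [Real.norm_of_nonneg (Real.rpow_nonneg (Nat.cast_nonneg n) s),
    Real.norm_of_nonneg (Real.exp_pos _).le, mul_comm δ] at hn
  have hK : 0 < |K| + 1 := by positivity
  have h4 : (|K| + 1) * (n : ℝ) ^ s ≤ Real.exp (n * δ) := by
    rw [one_div, inv_mul_eq_div, le_div_iff₀ hK] at hn
    linarith
  have h5 : 0 ≤ (n : ℝ) ^ s := Real.rpow_nonneg (Nat.cast_nonneg n) s
  rcases eq_or_lt_of_le h5 with h6 | h6
  · rw [← h6, mul_zero]; exact Real.exp_pos _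
  · have : K * (n : ℝ) ^ s < (|K| + 1) * (n : ℝ) ^ s :=
      mul_lt_mul_of_pos_right (by linarith [le_abs_self K]) h6
    linarith

theorem not_boundedAt_of_config {ι : Type} [Fintype ι] [DecidableEq ι] (P : ι → ℝ)
    (hP : ∀ i, 0 < P i) (hsum : ∑ i, P i = 1) (X T : ι → ℤ) (hX : Function.Injective X)
    (p₁ p₂ p₃ r : ℝ≥0∞) (hr0 : r ≠ 0) (hrt : r ≠ ∞)
    (hs : 1 / r.toReal = 1 / p₁.toReal + 1 / p₂.toReal + 1 / p₃.toReal)
    (hs1 : 1 < 1 / r.toReal)
    (hmain : 1 / p₁.toReal * entOf P (fun i => X i - 1 * T i) +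
      1 / p₂.toReal * entOf P (fun i => X i - 2 * T i) +
      1 / p₃.toReal * entOf P (fun i => X i - 3 * T i) <
        (1 / r.toReal - 1) * (-∑ i, P i * Real.log (P i))) :
    ¬ BoundedAt p₁ p₂ p₃ r := by
  classical
  rintro ⟨C, hC⟩
  set w₁ : ℝ := 1 / p₁.toReal with hw₁
  set w₂ : ℝ := 1 / p₂.toReal with hw₂
  set w₃ : ℝ := 1 / p₃.toReal with hw₃
  set s : ℝ := 1 / r.toReal with hsdef
  have hw₁0 : 0 ≤ w₁ := by positivity
  have hw₂0 : 0 ≤ w₂ := by positivity
  have hw₃0 : 0 ≤ w₃ := by positivity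
  set H₁ := entOf P (fun i => X i - 1 * T i) with hH₁
  set H₂ := entOf P (fun i => X i - 2 * T i) with hH₂
  set H₃ := entOf P (fun i => X i - 3 * T i) with hH₃
  set H := (-∑ i, P i * Real.log (P i)) with hH
  set gap := (s - 1) * H - (w₁ * H₁ + w₂ * H₂ + w₃ * H₃) with hgap
  have hgap0 : 0 < gap := by linarith
  set η := gap / (4 * s) with hη
  have hs0 : 0 < s := by linarith
  have hη0 : 0 < η := by positivity
  have hη4 : η * (4 * s) = gap := by rw [hη]; field_simp
  set δ := (s - 1) * (H - η) - (w₁ * (H₁ + η) + w₂ * (H₂ + η) + w₃ * (H₃ + η)) with hδ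
  have hδ0 : 0 < δ := by
    have : δ = gap - η * (2 * s - 1) := by
      rw [hδ, hgap, hs]; ring
    rw [this, ← hη4]
    have : η * (4 * s) - η * (2 * s - 1) = η * (2 * s + 1) := by ring
    rw [this]; positivity
  have hty := typical P hP hsum (fun i => X i - 1 * T i) (fun i => X i - 2 * T i)
    (fun i => X i - 3 * T i) (H - η) (H₁ + η) (H₂ + η) (H₃ + η) (by linarith) (by linarith)
    (by linarith) (by linarith)
  set K : ℝ := 24 * C * 6 ^ s * 64 ^ s with hK
  have hbeat := exp_beats K s δ hδ0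
  let D : ℕ := ∑ i, (X i).natAbs
  obtain ⟨n, ⟨S, hS0, hS1, hS2, hS3⟩, hnK, hn1, hnD⟩ :=
    (hty.and (hbeat.and ((eventually_ge_atTop 1).and (eventually_ge_atTop D)))).exists
  have hnpos : (0 : ℝ) < n := by exact_mod_cast hn1
  have hScard : 0 < S.card := by
    have : (0 : ℝ) < S.card := lt_of_lt_of_le (by positivity) hS0
    exact_mod_cast this
  -- integer vectors
  let F : (Fin n → ι) → (Fin n → ℤ) := fun w k => X (w k)
  have hFinj : Function.Injective F := fun w w' h => funext fun k => hX (congrFun h k)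
  have hcardF : (S.image F).card = S.card := Finset.card_image_of_injective S hFinj
  obtain ⟨N, X', A₁, A₂, A₃, hN1, hN2, hX', hA₁, hA₂, hA₃, hneg, hpt⟩ :=
    compress hn1 (S.image F) (S.image (fun w k => X (w k) - 1 * T (w k)))
      (S.image (fun w k => X (w k) - 2 * T (w k))) (S.image (fun w k => X (w k) - 3 * T (w k)))
      (by rw [← Finset.card_pos, hcardF]; exact hScard) D
      (by
        intro x hx i
        rw [Finset.mem_image] at hx
        obtain ⟨w, _, rfl⟩ := hx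
        have h1 : (X (w i)).natAbs ≤ D :=
          Finset.single_le_sum (f := fun i => (X i).natAbs) (fun _ _ => Nat.zero_le _)
            (Finset.mem_univ (w i))
        have h2 : |X (w i)| = ((X (w i)).natAbs : ℤ) := (Int.natCast_natAbs _).symm
        change |X (w i)| ≤ (D : ℤ)
        rw [h2]
        exact_mod_cast h1)
      (by rw [hcardF]; nlinarith)
      (by
        intro x hx
        rw [Finset.mem_image] at hx
        obtain ⟨w, hw, rfl⟩ := hx
        refine ⟨fun k => T (w k), ?_, ?_, ?_⟩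
        · refine Finset.mem_image.2 ⟨w, hw, ?_⟩
          funext k; simp [F]
        · exact Finset.mem_image.2 ⟨w, hw, rfl⟩
        · exact Finset.mem_image.2 ⟨w, hw, rfl⟩)
  rw [hcardF] at hN1 hN2 hX'
  have hNge : 1 ≤ N := by omega
  have hmainineq := bounded_imp p₁ p₂ p₃ r hr0 hrt C hC N hNge A₁ A₂ A₃ X' hneg hpt
  -- real inequalities
  have hNpos : (0 : ℝ) < N := by exact_mod_cast hNge
  have hSr : (0 : ℝ) < S.card := by exact_mod_cast hScard
  have hX'r : (N : ℝ) / (64 * n) ≤ (X'.card : ℝ) / 8 := by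
    rw [div_le_div_iff₀ (by positivity) (by norm_num)]
    have h1 : (N : ℝ) ≤ 4 * n * S.card := by exact_mod_cast hN2
    have h2 : (S.card : ℝ) ≤ 2 * X'.card := by exact_mod_cast hX'
    calc (N : ℝ) * 8 ≤ (4 * n * S.card) * 8 := by gcongr
      _ = 32 * (n * S.card) := by ring
      _ ≤ 32 * (n * (2 * X'.card)) := by gcongr
      _ = X'.card * (64 * n) := by ring
  have hNexp : Real.exp (n * (H - η)) ≤ N := by
    have h1 : (2 * n * S.card : ℝ) ≤ N := by exact_mod_cast hN1.le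
    have h2 : (1 : ℝ) ≤ n := by exact_mod_cast hn1
    have h3 : Real.exp (n * (H - η)) ≤ 2 * S.card := by linarith [hS0]
    have h4 : (1 : ℝ) * (2 * S.card) ≤ n * (2 * S.card) :=
      mul_le_mul_of_nonneg_right h2 (by positivity)
    calc Real.exp (n * (H - η)) ≤ 1 * (2 * S.card) := by rw [one_mul]; exact h3
      _ ≤ n * (2 * S.card) := h4
      _ = 2 * n * S.card := by ring
      _ ≤ N := h1
  have hAj : ∀ (A : Finset ℤ) (B : ℕ) (l w : ℝ), A.card ≤ 6 * B → (B : ℝ) ≤ Real.exp (n * l) →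
      0 ≤ w → (A.card : ℝ) ^ w ≤ 6 ^ w * Real.exp (n * (w * l)) := by
    intro A B l w h1 h2 h3
    have h4 : (A.card : ℝ) ≤ 6 * Real.exp (n * l) := by
      have : (A.card : ℝ) ≤ 6 * B := by exact_mod_cast h1
      linarith
    calc (A.card : ℝ) ^ w ≤ (6 * Real.exp (n * l)) ^ w :=
          Real.rpow_le_rpow (Nat.cast_nonneg _) h4 h3
      _ = 6 ^ w * Real.exp (n * (w * l)) := by
          rw [Real.mul_rpow (by norm_num) (Real.exp_pos _).le, ← Real.exp_mul]
          congr 2; ring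
  have e1 := hAj A₁ _ (H₁ + η) w₁ hA₁ hS1 hw₁0
  have e2 := hAj A₂ _ (H₂ + η) w₂ hA₂ hS2 hw₂0
  have e3 := hAj A₃ _ (H₃ + η) w₃ hA₃ hS3 hw₃0
  have hRHS : (C : ℝ) * ((A₁.card : ℝ) ^ w₁ * (A₂.card : ℝ) ^ w₂ * (A₃.card : ℝ) ^ w₃) ≤
      C * (6 ^ s * Real.exp (n * (w₁ * (H₁ + η) + w₂ * (H₂ + η) + w₃ * (H₃ + η)))) := by
    refine mul_le_mul_of_nonneg_left ?_ C.2
    calc (A₁.card : ℝ) ^ w₁ * (A₂.card : ℝ) ^ w₂ * (A₃.card : ℝ) ^ w₃
        ≤ (6 ^ w₁ * Real.exp (n * (w₁ * (H₁ + η)))) * (6 ^ w₂ * Real.exp (n * (w₂ * (H₂ + η)))) *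
          (6 ^ w₃ * Real.exp (n * (w₃ * (H₃ + η)))) := by
          gcongr
      _ = 6 ^ s * Real.exp (n * (w₁ * (H₁ + η) + w₂ * (H₂ + η) + w₃ * (H₃ + η))) := by
          have hexp : Real.exp (n * (w₁ * (H₁ + η) + w₂ * (H₂ + η) + w₃ * (H₃ + η))) =
              Real.exp (n * (w₁ * (H₁ + η))) * Real.exp (n * (w₂ * (H₂ + η))) *
                Real.exp (n * (w₃ * (H₃ + η))) := by
            rw [← Real.exp_add, ← Real.exp_add]
            congr 1
            ring
          rw [hs, Real.rpow_add (by norm_num), Real.rpow_add (by norm_num), hexp]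
          ring
  have hLHS : 1 / 24 * (Real.exp (n * ((s - 1) * (H - η))) / (64 * n) ^ s) ≤
      1 / (24 * (N : ℝ)) * ((X'.card : ℝ) / 8) ^ s := by
    have h1 : ((N : ℝ) / (64 * n)) ^ s ≤ ((X'.card : ℝ) / 8) ^ s :=
      Real.rpow_le_rpow (by positivity) hX'r hs0.le
    have h2 : ((N : ℝ) / (64 * n)) ^ s = N * ((N : ℝ) ^ (s - 1) / (64 * n) ^ s) := by
      rw [Real.div_rpow hNpos.le (by positivity)]
      have : (N : ℝ) ^ s = N * (N : ℝ) ^ (s - 1) := by
        rw [← Real.rpow_one_add' hNpos.le (by linarith)]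
        congr 1; ring
      rw [this]; ring
    have h3 : Real.exp (n * ((s - 1) * (H - η))) ≤ (N : ℝ) ^ (s - 1) := by
      have : Real.exp (n * ((s - 1) * (H - η))) = (Real.exp (n * (H - η))) ^ (s - 1) := by
        rw [← Real.exp_mul]; congr 1; ring
      rw [this]
      exact Real.rpow_le_rpow (Real.exp_pos _).le hNexp (by linarith)
    calc 1 / 24 * (Real.exp (n * ((s - 1) * (H - η))) / (64 * n) ^ s)
        ≤ 1 / 24 * ((N : ℝ) ^ (s - 1) / (64 * n) ^ s) := by gcongr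
      _ = 1 / (24 * (N : ℝ)) * ((N : ℝ) / (64 * n)) ^ s := by
          rw [h2]; field_simp
      _ ≤ _ := by gcongr
  have hfin : 1 / 24 * (Real.exp (n * ((s - 1) * (H - η))) / (64 * n) ^ s) ≤
      C * (6 ^ s * Real.exp (n * (w₁ * (H₁ + η) + w₂ * (H₂ + η) + w₃ * (H₃ + η)))) :=
    hLHS.trans (hmainineq.trans hRHS)
  have hE : Real.exp (n * δ) ≤ K * (n : ℝ) ^ s := by
    have h64 : (0 : ℝ) < (64 * n) ^ s := by positivity
    have h1 : Real.exp (n * ((s - 1) * (H - η))) = Real.exp (n * δ) *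
        Real.exp (n * (w₁ * (H₁ + η) + w₂ * (H₂ + η) + w₃ * (H₃ + η))) := by
      rw [← Real.exp_add]; congr 1; rw [hδ]; ring
    rw [h1] at hfin
    set E := Real.exp (n * (w₁ * (H₁ + η) + w₂ * (H₂ + η) + w₃ * (H₃ + η))) with hEdef
    have hE0 : 0 < E := Real.exp_pos _
    have h2 : Real.exp (n * δ) * E ≤ 24 * C * 6 ^ s * (64 * n) ^ s * E := by
      have h3 := mul_le_mul_of_nonneg_left hfin (show (0 : ℝ) ≤ 24 * (64 * n) ^ s by positivity)
      have h4 : 24 * (64 * n : ℝ) ^ s * (1 / 24 * (Real.exp (n * δ) * E / (64 * n) ^ s)) =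
          Real.exp (n * δ) * E := by
        field_simp
      rw [h4] at h3
      linarith
    have h5 := le_of_mul_le_mul_right h2 hE0
    rw [Real.mul_rpow (by norm_num) hnpos.le] at h5
    rw [hK]
    linarith
  exact absurd hE (not_le.2 hnK)

end Vale.Agent.P141
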