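import Mathlib
import Vale.Agent.P141.Entropy

open Finset

namespace Vale.Agent.P141

variable {ι : Type} [Fintype ι] [DecidableEq ι]

/-- integer marginal -/
def margN (n : ι → ℕ) (f : ι → ℤ) (a : ℤ) : ℕ := ∑ i ∈ univ.filter (fun i => f i = a), n i

/-- the probability vector `n / D` -/
noncomputable def prb (n : ι → ℕ) (D : ℕ) (i : ι) : ℝ := (n i : ℝ) / D

set_option linter.unusedSectionVars false

lemma marg_prb (n : ι → ℕ) (D : ℕ) (f : ι → ℤ) (a : ℤ) :
    marg (prb n D) f a = (margN n f a : ℝ) / D := by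
  unfold marg prb margN
  rw [← Finset.sum_div]
  push_cast
  rfl

lemma sum_prb (n : ι → ℕ) (D : ℕ) (hD : 0 < D) (hsum : ∑ i, n i = D) :
    ∑ i, prb n D i = 1 := by
  unfold prb
  rw [← Finset.sum_div, ← Nat.cast_sum, hsum]
  exact div_self (by exact_mod_cast hD.ne')

lemma log_prod_pow (n m : ι → ℕ) (hm : ∀ i, 0 < m i) :
    Real.log ((∏ i, (m i) ^ (n i) : ℕ) : ℝ) = ∑ i, (n i : ℝ) * Real.log (m i) := by
  push_cast
  rw [Real.log_prod (fun i _ => by have := hm i; positivity)]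
  exact Finset.sum_congr rfl fun i _ => Real.log_pow _ _

lemma cross_eq (n m : ι → ℕ) (D : ℕ) (hD : 0 < D) (hsum : ∑ i, n i = D) (hm : ∀ i, 0 < m i) :
    (D : ℝ) * (-∑ i, prb n D i * Real.log ((m i : ℝ) / D)) =
      D * Real.log D - Real.log ((∏ i, (m i) ^ (n i) : ℕ) : ℝ) := by
  have hD' : (D : ℝ) ≠ 0 := by exact_mod_cast hD.ne'
  rw [log_prod_pow n m hm]
  have h1 : ∀ i, prb n D i * Real.log ((m i : ℝ) / D) =
      (1 / D) * ((n i : ℝ) * Real.log (m i)) - (1 / D) * ((n i : ℝ) * Real.log D) := by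
    intro i
    have hmi : ((m i : ℕ) : ℝ) ≠ 0 := by exact_mod_cast (hm i).ne'
    rw [Real.log_div hmi hD']
    unfold prb
    ring
  rw [Finset.sum_congr rfl fun i _ => h1 i, Finset.sum_sub_distrib, ← Finset.mul_sum,
    ← Finset.mul_sum, ← Finset.sum_mul, ← Nat.cast_sum, hsum]
  field_simp
  ring

/-- The entropy comparison reduces to an inequality between natural numbers. -/
theorem ent_compare (n : ι → ℕ) (D : ℕ) (hD : 0 < D) (hn : ∀ i, 0 < n i)
    (hsum : ∑ i, n i = D) (f : ι → ℤ) (α β : ℕ) (hβ : 0 < β) (hαβ : α ≤ β)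
    (h : D ^ ((β - α) * D) * (∏ i, (n i) ^ (n i)) ^ α < (∏ i, (margN n f (f i)) ^ (n i)) ^ β) :
    entOf (prb n D) f < (α : ℝ) / β * (-∑ i, prb n D i * Real.log (prb n D i)) := by
  have hmpos : ∀ i, 0 < margN n f (f i) := by
    intro i
    unfold margN
    exact Finset.sum_pos (fun j _ => hn j) ⟨i, by simp⟩
  have hDr : (0 : ℝ) < D := by exact_mod_cast hD
  have hβr : (0 : ℝ) < β := by exact_mod_cast hβ
  have e1 := cross_eq n (fun i => margN n f (f i)) D hD hsum hmpos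
  have e2 := cross_eq n n D hD hsum hn
  have hent : entOf (prb n D) f =
      -∑ i, prb n D i * Real.log (((margN n f (f i) : ℕ) : ℝ) / D) := by
    unfold entOf
    simp only [marg_prb]
  have hent2 : (-∑ i, prb n D i * Real.log (prb n D i)) =
      (-∑ i, prb n D i * Real.log ((n i : ℝ) / D)) := rfl
  have hp1 : 0 < ∏ i, (n i) ^ (n i) := Finset.prod_pos fun i _ => pow_pos (hn i) _
  have hp2 : 0 < ∏ i, (margN n f (f i)) ^ (n i) := Finset.prod_pos fun i _ => pow_pos (hmpos i) _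
  have hlog : ((β - α : ℕ) : ℝ) * D * Real.log D + α * Real.log ((∏ i, (n i) ^ (n i) : ℕ) : ℝ) <
      β * Real.log ((∏ i, (margN n f (f i)) ^ (n i) : ℕ) : ℝ) := by
    generalize (∏ i, (n i) ^ (n i)) = A at h hp1 ⊢
    generalize (∏ i, (margN n f (f i)) ^ (n i)) = B at h hp2 ⊢
    have h1 : ((D ^ ((β - α) * D) * A ^ α : ℕ) : ℝ) < ((B ^ β : ℕ) : ℝ) := by exact_mod_cast h
    have h2 := Real.log_lt_log (by
      have : 0 < D ^ ((β - α) * D) * A ^ α := by positivity
      exact_mod_cast this) h1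
    rw [Nat.cast_mul, Nat.cast_pow, Nat.cast_pow, Nat.cast_pow,
      Real.log_mul (pow_ne_zero _ hDr.ne') (pow_ne_zero _ (by exact_mod_cast hp1.ne')),
      Real.log_pow, Real.log_pow, Real.log_pow, Nat.cast_mul] at h2
    exact h2
  rw [Nat.cast_sub hαβ] at hlog
  rw [hent, hent2]
  set E1 := -∑ i, prb n D i * Real.log (((margN n f (f i) : ℕ) : ℝ) / D)
  set E2 := -∑ i, prb n D i * Real.log ((n i : ℝ) / D)
  rw [div_mul_eq_mul_div, lt_div_iff₀ hβr]
  have e1' : Real.log ((∏ i, (margN n f (f i)) ^ (n i) : ℕ) : ℝ) = D * Real.log D - D * E1 := by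
    linarith
  have e2' : Real.log ((∏ i, (n i) ^ (n i) : ℕ) : ℝ) = D * Real.log D - D * E2 := by
    linarith
  rw [e1', e2'] at hlog
  have h3 : (D : ℝ) * (E1 * β) < D * (α * E2) := by nlinarith
  exact lt_of_mul_lt_mul_left h3 hDr.le

/-- The non-strict entropy comparison. -/
theorem ent_compare_le (n : ι → ℕ) (D : ℕ) (hD : 0 < D) (hn : ∀ i, 0 < n i)
    (hsum : ∑ i, n i = D) (f : ι → ℤ) (α β : ℕ) (hβ : 0 < β) (hαβ : α ≤ β)
    (h : D ^ ((β - α) * D) * (∏ i, (n i) ^ (n i)) ^ α ≤ (∏ i, (margN n f (f i)) ^ (n i)) ^ β) :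
    entOf (prb n D) f ≤ (α : ℝ) / β * (-∑ i, prb n D i * Real.log (prb n D i)) := by
  have hmpos : ∀ i, 0 < margN n f (f i) := by
    intro i
    unfold margN
    exact Finset.sum_pos (fun j _ => hn j) ⟨i, by simp⟩
  have hDr : (0 : ℝ) < D := by exact_mod_cast hD
  have hβr : (0 : ℝ) < β := by exact_mod_cast hβ
  have e1 := cross_eq n (fun i => margN n f (f i)) D hD hsum hmpos
  have e2 := cross_eq n n D hD hsum hn
  have hent : entOf (prb n D) f =
      -∑ i, prb n D i * Real.log (((margN n f (f i) : ℕ) : ℝ) / D) := by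
    unfold entOf
    simp only [marg_prb]
  have hent2 : (-∑ i, prb n D i * Real.log (prb n D i)) =
      (-∑ i, prb n D i * Real.log ((n i : ℝ) / D)) := rfl
  have hp1 : 0 < ∏ i, (n i) ^ (n i) := Finset.prod_pos fun i _ => pow_pos (hn i) _
  have hp2 : 0 < ∏ i, (margN n f (f i)) ^ (n i) := Finset.prod_pos fun i _ => pow_pos (hmpos i) _
  have hlog : ((β - α : ℕ) : ℝ) * D * Real.log D + α * Real.log ((∏ i, (n i) ^ (n i) : ℕ) : ℝ) ≤
      β * Real.log ((∏ i, (margN n f (f i)) ^ (n i) : ℕ) : ℝ) := by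
    generalize (∏ i, (n i) ^ (n i)) = A at h hp1 ⊢
    generalize (∏ i, (margN n f (f i)) ^ (n i)) = B at h hp2 ⊢
    have h1 : ((D ^ ((β - α) * D) * A ^ α : ℕ) : ℝ) ≤ ((B ^ β : ℕ) : ℝ) := by exact_mod_cast h
    have h2 := Real.log_le_log (by
      have : 0 < D ^ ((β - α) * D) * A ^ α := by positivity
      exact_mod_cast this) h1
    rw [Nat.cast_mul, Nat.cast_pow, Nat.cast_pow, Nat.cast_pow,
      Real.log_mul (pow_ne_zero _ hDr.ne') (pow_ne_zero _ (by exact_mod_cast hp1.ne')),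
      Real.log_pow, Real.log_pow, Real.log_pow, Nat.cast_mul] at h2
    exact h2
  rw [Nat.cast_sub hαβ] at hlog
  rw [hent, hent2]
  set E1 := -∑ i, prb n D i * Real.log (((margN n f (f i) : ℕ) : ℝ) / D)
  set E2 := -∑ i, prb n D i * Real.log ((n i : ℝ) / D)
  rw [div_mul_eq_mul_div, le_div_iff₀ hβr]
  have e1' : Real.log ((∏ i, (margN n f (f i)) ^ (n i) : ℕ) : ℝ) = D * Real.log D - D * E1 := by
    linarith
  have e2' : Real.log ((∏ i, (n i) ^ (n i) : ℕ) : ℝ) = D * Real.log D - D * E2 := by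
    linarith
  rw [e1', e2'] at hlog
  have h3 : (D : ℝ) * (E1 * β) ≤ D * (α * E2) := by nlinarith
  exact le_of_mul_le_mul_left h3 hDr

lemma ent_pos (n : ι → ℕ) (D : ℕ) (hn : ∀ i, 0 < n i) (hlt : ∀ i, n i < D) [Nonempty ι] :
    0 < -∑ i, prb n D i * Real.log (prb n D i) := by
  rw [← Finset.sum_neg_distrib]
  refine Finset.sum_pos (fun i _ => ?_) Finset.univ_nonempty
  have h1 : (0 : ℝ) < n i := by exact_mod_cast hn i
  have h2 : (n i : ℝ) < D := by exact_mod_cast hlt i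
  have h3 : (0 : ℝ) < D := h1.trans h2
  have h4 : prb n D i < 1 := (div_lt_one h3).2 h2
  have h5 : 0 < prb n D i := div_pos h1 h3
  have h6 := Real.log_neg h5 h4
  nlinarith

end Vale.Agent.P141
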